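import Vale.Agent.P162.H72.Cube
import Vale.Agent.P162.H72.Even

/-!
# P162: the mixing time of the Thorp shuffle is of order `log n`

`mixTime m` is the mixing time of the deck of `n = 2 * m` cards.
-/

namespace Vale.Agent.Results.P162.ThorpMixing

open Vale.Agent.P162 Vale.Agent.P162.Statement

/-- For every even `n = 2 * m ≥ 2` the mixing time is between `c * log n` and `C * log n`; for
`n = 2 ^ (d + 1)` (that is `m = 2 ^ d`) it is between `d + 1` and `C * (d + 1)`. -/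
theorem result :
    (∃ c C : ℝ, 0 < c ∧ 0 < C ∧ ∀ m : ℕ, 1 ≤ m →
      IsLeast (mixedTimes m) (mixTime m) ∧
      c * Real.log (2 * m : ℕ) ≤ mixTime m ∧ (mixTime m : ℝ) ≤ C * Real.log (2 * m : ℕ)) ∧
    (∃ C : ℕ, ∀ d : ℕ, d + 1 ≤ mixTime (2 ^ d) ∧ mixTime (2 ^ d) ≤ C * (d + 1)) := by
  constructor
  · obtain ⟨C0, m0, h⟩ := H72.even_upper
    obtain ⟨c, C, hc, hC, h2⟩ := H72.assemble_gen C0 m0 h
    refine ⟨c, C, hc, hC, fun m hm => ?_⟩
    rw [H72.mixTime_eq, H72.mixedTimes_eq]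
    exact h2 m hm
  · obtain ⟨r, d1, h⟩ := H72.cube_upper
    obtain ⟨C, h2⟩ := H72.assemble_cube r d1 h
    refine ⟨C, fun d => ?_⟩
    rw [H72.mixTime_eq]
    exact (h2 d).2

end Vale.Agent.Results.P162.ThorpMixing
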